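import Vale.Agent.Lib.P140.Lemmas

/-!
Uniqueness for the periodic hard-sphere Boltzmann equation when the datum is a global
Maxwellian of temperature at most one.  Only the nonnegativity, the moment and entropy
bound, the conservation of total mass and momentum, the energy inequality and the entropy
inequality of a renormalized entropy solution are used.
-/

namespace Vale.Agent.Results.P140.ColdMaxwellianUnique

open MeasureTheory Vale.Agent.Lib.P140

theorem result (ρ θ : ℝ) (u : Vel) (hρ : 0 < ρ) (hθ : 0 < θ) (hθ1 : θ ≤ 1)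
    (F : ℝ → Phase → ℝ)
    (hF : ∀ t, 0 ≤ t → Admissible (F t))
    (hF_init : AeEq (F 0) (maxwellian ρ θ u))
    (h_mass : ∀ t, 0 ≤ t → mass (F t) = mass (F 0))
    (h_mom : ∀ t, 0 ≤ t → momentum (F t) = momentum (F 0))
    (h_energy : ∀ t, 0 ≤ t → energy (F t) ≤ energy (F 0))
    (h_entropy : ∀ t, 0 ≤ t → relEntropy (F t) ≤ relEntropy (F 0)) :
    ∀ t, 0 ≤ t → AeEq (F t) (maxwellian ρ θ u) := by
  intro t ht
  have hkey := relEntropyTo_le_energy_defect hρ hθ u (hF t ht) (hF 0 le_rfl) hF_init
    (h_mass t ht) (h_mom t ht) (h_entropy t ht)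
  refine aeEq_of_relEntropyTo_nonpos hρ hθ u (hF t ht) (hkey.trans ?_)
  have h4 : (θ - 1) / (2 * θ) ≤ 0 :=
    div_nonpos_of_nonpos_of_nonneg (by linarith) (by positivity)
  exact mul_nonpos_of_nonpos_of_nonneg h4 (by linarith [h_energy t ht])

end Vale.Agent.Results.P140.ColdMaxwellianUnique
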