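import Vale.Agent.Lib.P140.Lemmas

/-!
For a global Maxwellian datum of arbitrary temperature, the entropy of the solution relative
to the datum is bounded by a multiple of the energy lost, so that the solution can differ
from the datum only at times at which it has lost energy.
-/

namespace Vale.Agent.Results.P140.MaxwellianEnergyDefect

open MeasureTheory Vale.Agent.Lib.P140

theorem result (ρ θ : ℝ) (u : Vel) (hρ : 0 < ρ) (hθ : 0 < θ)
    (F : ℝ → Phase → ℝ)
    (hF : ∀ t, 0 ≤ t → Admissible (F t))
    (hF_init : AeEq (F 0) (maxwellian ρ θ u))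
    (h_mass : ∀ t, 0 ≤ t → mass (F t) = mass (F 0))
    (h_mom : ∀ t, 0 ≤ t → momentum (F t) = momentum (F 0))
    (h_energy : ∀ t, 0 ≤ t → energy (F t) ≤ energy (F 0))
    (h_entropy : ∀ t, 0 ≤ t → relEntropy (F t) ≤ relEntropy (F 0)) :
    ∀ t, 0 ≤ t →
      relEntropyTo (maxwellian ρ θ u) (F t)
          ≤ max 0 ((θ - 1) / (2 * θ)) * (energy (F 0) - energy (F t))
        ∧ ((θ ≤ 1 ∨ energy (F t) = energy (F 0)) → AeEq (F t) (maxwellian ρ θ u)) := by
  intro t ht
  have hkey := relEntropyTo_le_energy_defect hρ hθ u (hF t ht) (hF 0 le_rfl) hF_init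
    (h_mass t ht) (h_mom t ht) (h_entropy t ht)
  have hE := h_energy t ht
  refine ⟨?_, ?_⟩
  · refine hkey.trans ?_
    exact mul_le_mul_of_nonneg_right (le_max_right _ _) (by linarith)
  · intro hcase
    refine aeEq_of_relEntropyTo_nonpos hρ hθ u (hF t ht) (hkey.trans ?_)
    rcases hcase with h1 | h1
    · have h4 : (θ - 1) / (2 * θ) ≤ 0 :=
        div_nonpos_of_nonpos_of_nonneg (by linarith) (by positivity)
      exact mul_nonpos_of_nonpos_of_nonneg h4 (by linarith)
    · rw [h1, sub_self, mul_zero]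

end Vale.Agent.Results.P140.MaxwellianEnergyDefect
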